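import Vale.Agent.P227.Fiber

namespace Vale.Agent.P227

open Set MeasureTheory

/-- invariance under `x ↦ -x` in the plane and under norm preserving changes in the blocks -/
def InvB {k : ℕ} {E : Fin k → Type} [∀ j, NormedAddCommGroup (E j)]
    (K : Set ((ℝ × ℝ) × (∀ j, E j))) : Prop :=
  ∀ x y y', (x, y) ∈ K → (∀ j, ‖y' j‖ = ‖y j‖) → (x, y') ∈ K ∧ (-x, y') ∈ K

theorem exists_norm_attain {E : Type*} [NormedAddCommGroup E] [NormedSpace ℝ E]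
    [FiniteDimensional ℝ E] (φ : E →L[ℝ] ℝ) (y : E) : ∃ y', ‖y'‖ = ‖y‖ ∧ φ y' = ‖φ‖ * ‖y‖ := by
  rcases (norm_nonneg y).eq_or_lt with h0 | h0
  · exact ⟨0, by rw [norm_zero, h0], by rw [map_zero, ← h0, mul_zero]⟩
  have := FiniteDimensional.proper_real E
  obtain ⟨y', hy', hmax⟩ := (isCompact_sphere (0 : E) ‖y‖).exists_isMaxOn
    ⟨y, by simp⟩ φ.continuous.continuousOn
  have hn : ‖y'‖ = ‖y‖ := by simpa using hy'
  have key : ∀ w : E, ‖w‖ = ‖y‖ → |φ w| ≤ φ y' := by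
    intro w hw
    have h1 : φ w ≤ φ y' := hmax (by simpa using hw)
    have h2 : φ (-w) ≤ φ y' := hmax (by simpa using hw)
    rw [map_neg] at h2
    exact abs_le.2 ⟨by linarith, h1⟩
  refine ⟨y', hn, le_antisymm ?_ ?_⟩
  · rw [← hn]
    exact (le_abs_self _).trans (φ.le_opNorm y')
  · have h1 : 0 ≤ φ y' := (abs_nonneg _).trans (key y rfl)
    rw [← le_div_iff₀ h0]
    refine ContinuousLinearMap.opNorm_le_of_unit_norm (div_nonneg h1 h0.le) fun x hx => ?_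
    have h2 := key (‖y‖ • x) (by rw [norm_smul, hx, mul_one, norm_norm])
    rw [map_smul, smul_eq_mul, abs_mul, abs_of_pos h0] at h2
    rw [le_div_iff₀ h0, Real.norm_eq_abs, mul_comm]
    exact h2

/-- restriction of a functional to one block -/
noncomputable def blockB {k : ℕ} {E : Fin k → Type} [∀ j, NormedAddCommGroup (E j)]
    [∀ j, NormedSpace ℝ (E j)] (φ : ((ℝ × ℝ) × (∀ j, E j)) →L[ℝ] ℝ) (j : Fin k) : E j →L[ℝ] ℝ :=
  φ.comp ((ContinuousLinearMap.inr ℝ (ℝ × ℝ) (∀ j, E j)).comp (ContinuousLinearMap.single ℝ E j))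

theorem phi_splitB {k : ℕ} {E : Fin k → Type} [∀ j, NormedAddCommGroup (E j)]
    [∀ j, NormedSpace ℝ (E j)] (φ : ((ℝ × ℝ) × (∀ j, E j)) →L[ℝ] ℝ) (x : ℝ × ℝ) (y : ∀ j, E j) :
    φ (x, y) = φ (x, 0) + ∑ j, blockB φ j (y j) := by
  have h : (x, y) = (x, 0) + ∑ j, (((0 : ℝ × ℝ), Pi.single j (y j)) :
      (ℝ × ℝ) × (∀ j, E j)) := by
    ext1
    · simp [Prod.fst_sum]
    · simp only [Prod.snd_add, Prod.snd_sum, zero_add]
      exact (Finset.univ_sum_single y).symm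
  conv_lhs => rw [h, map_add, map_sum]
  rfl

theorem fiber_boundB {k : ℕ} {E : Fin k → Type} [∀ j, NormedAddCommGroup (E j)]
    [∀ j, NormedSpace ℝ (E j)] [∀ j, FiniteDimensional ℝ (E j)]
    {K : Set ((ℝ × ℝ) × (∀ j, E j))} (hK : InvB K)
    (φ : ((ℝ × ℝ) × (∀ j, E j)) →L[ℝ] ℝ) {s : ℝ} (hφ : ∀ w ∈ K, φ w ≤ s) {y : ∀ j, E j}
    {x : ℝ × ℝ} (hx : (x, y) ∈ K) :
    |φ (x, 0)| ≤ s - ∑ j, ‖blockB φ j‖ * ‖y j‖ := by
  choose y' h1 h2 using fun j => exists_norm_attain (blockB φ j) (y j)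
  obtain ⟨hp, hn⟩ := hK x y y' hx h1
  have e1 := hφ _ hp
  have e2 := hφ _ hn
  rw [phi_splitB] at e1 e2
  have e3 : φ (-x, 0) = -φ (x, 0) := by
    rw [← map_neg]; congr 1; simp
  rw [e3] at e2
  simp only [h2] at e1 e2
  rw [abs_le]
  constructor <;> linarith

theorem fiber_memB {k : ℕ} {E : Fin k → Type} [∀ j, NormedAddCommGroup (E j)]
    [∀ j, NormedSpace ℝ (E j)] [∀ j, FiniteDimensional ℝ (E j)]
    {K L : Set ((ℝ × ℝ) × (∀ j, E j))} (hK : InvB K) (hL : InvB L)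
    {a b : ℝ} (ha : 0 < a) (hb : 0 < b) (hab : a + b = 1) {y y' z : ∀ j, E j}
    (hz : ∀ j, ‖z j‖ = ‖y j‖ ^ a * ‖y' j‖ ^ b)
    (k0 : {x | (x, y) ∈ K}.Nonempty) (l0 : {x | (x, y') ∈ L}.Nonempty) {x : ℝ × ℝ}
    (hx : x ∈ LW a b {x | (x, y) ∈ K} {x | (x, y') ∈ L}) : (x, z) ∈ LW a b K L := by
  intro φ s t _ _ hKs hLt
  obtain ⟨x1, hx1⟩ := k0
  obtain ⟨x2, hx2⟩ := l0
  have hs1 : 0 ≤ s - ∑ j, ‖blockB φ j‖ * ‖y j‖ :=
    (abs_nonneg _).trans (fiber_boundB hK φ hKs hx1)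
  have ht1 : 0 ≤ t - ∑ j, ‖blockB φ j‖ * ‖y' j‖ :=
    (abs_nonneg _).trans (fiber_boundB hL φ hLt hx2)
  have h1 := hx (φ.comp (ContinuousLinearMap.inl ℝ _ _)) _ _ hs1 ht1
    (fun w hw => (le_abs_self _).trans (fiber_boundB hK φ hKs hw))
    (fun w hw => (le_abs_self _).trans (fiber_boundB hL φ hLt hw))
  have h2 := holder ha hb hab hs1 ht1 (fun j => ‖blockB φ j‖ * ‖y j‖)
    (fun j => ‖blockB φ j‖ * ‖y' j‖) (fun j => by positivity) (fun j => by positivity)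
  simp only [sub_add_cancel] at h2
  have h3 : ∑ j, blockB φ j (z j) ≤
      ∑ j, (‖blockB φ j‖ * ‖y j‖) ^ a * (‖blockB φ j‖ * ‖y' j‖) ^ b :=
    Finset.sum_le_sum fun j _ => by
      refine ((le_abs_self _).trans ((blockB φ j).le_opNorm (z j))).trans (le_of_eq ?_)
      rw [hz j, Real.mul_rpow (norm_nonneg _) (norm_nonneg _),
        Real.mul_rpow (norm_nonneg _) (norm_nonneg _)]
      have h : ‖blockB φ j‖ ^ a * ‖blockB φ j‖ ^ b = ‖blockB φ j‖ := by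
        rw [← Real.rpow_add' (norm_nonneg _) (by rw [hab]; exact one_ne_zero), hab, Real.rpow_one]
      calc _ = ‖y j‖ ^ a * ‖y' j‖ ^ b * (‖blockB φ j‖ ^ a * ‖blockB φ j‖ ^ b) := by
            rw [h]; ring
        _ = _ := by ring
  rw [phi_splitB]
  exact (add_le_add h1 h3).trans h2

end Vale.Agent.P227
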