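import Vale.Agent.P227B.MainPB

namespace Vale.Agent.P227

open Set MeasureTheory

theorem mainEB {n k : ℕ} {E : Fin k → Type} [∀ j, NormedAddCommGroup (E j)]
    [∀ j, NormedSpace ℝ (E j)] [∀ j, FiniteDimensional ℝ (E j)]
    (T : ((ℝ × ℝ) × (∀ j, E j)) ≃L[ℝ] EuclideanSpace ℝ (Fin n))
    {K L : Set (EuclideanSpace ℝ (Fin n))} (cK : IsCompact K) (cL : IsCompact L)
    (vK : Convex ℝ K) (vL : Convex ℝ L) (nK : ∀ x ∈ K, -x ∈ K) (nL : ∀ x ∈ L, -x ∈ L)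
    (rK : ∀ x y y', T (x, y) ∈ K → (∀ j, ‖y' j‖ = ‖y j‖) → T (x, y') ∈ K)
    (rL : ∀ x y y', T (x, y) ∈ L → (∀ j, ‖y' j‖ = ‖y j‖) → T (x, y') ∈ L)
    {a b : ℝ} (ha : 0 < a) (hb : 0 < b) (hab : a + b = 1) :
    volume K ^ a * volume L ^ b ≤ volume (LW a b K L) := by
  letI : ∀ j, MeasurableSpace (E j) := fun j => borel (E j)
  haveI : ∀ j, BorelSpace (E j) := fun j => ⟨rfl⟩
  obtain ⟨μ, hμ⟩ : ∃ μ : ∀ j, Measure (E j), ∀ j, (μ j).IsAddHaarMeasure :=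
    ⟨fun j => Measure.addHaar, fun j => inferInstance⟩
  have hpi : (Measure.pi μ).IsAddHaarMeasure := inferInstance
  have hprod : ((volume : Measure (ℝ × ℝ)).prod (Measure.pi μ)).IsAddHaarMeasure :=
    Measure.prod.instIsAddHaarMeasure _ _
  have hH : (Measure.map T ((volume : Measure (ℝ × ℝ)).prod (Measure.pi μ))).IsAddHaarMeasure :=
    T.isAddHaarMeasure_map _
  obtain ⟨c, hc0, hc⟩ : ∃ c : NNReal, 0 < c ∧
      Measure.map T ((volume : Measure (ℝ × ℝ)).prod (Measure.pi μ)) = c • volume :=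
    ⟨_, Measure.addHaarScalarFactor_pos_of_isAddHaarMeasure _ _,
      Measure.isAddLeftInvariant_eq_smul _ _⟩
  have key : ∀ S : Set (EuclideanSpace ℝ (Fin n)), MeasurableSet S →
      ((volume : Measure (ℝ × ℝ)).prod (Measure.pi μ)) (T ⁻¹' S) = (c : ENNReal) * volume S := by
    intro S hS
    rw [← Measure.map_apply T.continuous.measurable hS, hc, Measure.smul_apply]
    rfl
  have hinv : ∀ M : Set (EuclideanSpace ℝ (Fin n)), (∀ x ∈ M, -x ∈ M) →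
      (∀ x y y', T (x, y) ∈ M → (∀ j, ‖y' j‖ = ‖y j‖) → T (x, y') ∈ M) → InvB (T ⁻¹' M) := by
    intro M hn hr x y y' hxy hy
    refine ⟨hr x y y' hxy hy, ?_⟩
    have h3 := hn _ (hr x y (-y') hxy fun j => by rw [Pi.neg_apply, norm_neg, hy j])
    have h4 : T (-x, y') = -T (x, -y') := by rw [← map_neg]; simp
    show T _ ∈ M
    rw [h4]; exact h3
  have h1 := mainPB μ (T.toHomeomorph.isCompact_preimage.2 cK)
    (T.toHomeomorph.isCompact_preimage.2 cL)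
    (vK.linear_preimage (T : ((ℝ × ℝ) × (∀ j, E j)) →ₗ[ℝ] _))
    (vL.linear_preimage (T : ((ℝ × ℝ) × (∀ j, E j)) →ₗ[ℝ] _)) (hinv K nK rK) (hinv L nL rL)
    ha hb hab
  have h2 : LW a b (T ⁻¹' K) (T ⁻¹' L) ⊆ T ⁻¹' LW a b K L := by
    intro x hx φ s t hs ht h3 h4
    exact hx (φ.comp T.toContinuousLinearMap) s t hs ht (fun y hy => h3 (T y) hy)
      (fun y hy => h4 (T y) hy)
  have h3 : ((volume : Measure (ℝ × ℝ)).prod (Measure.pi μ)) (T ⁻¹' K) ^ a *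
      ((volume : Measure (ℝ × ℝ)).prod (Measure.pi μ)) (T ⁻¹' L) ^ b ≤
      ((volume : Measure (ℝ × ℝ)).prod (Measure.pi μ)) (T ⁻¹' LW a b K L) :=
    h1.trans (measure_mono h2)
  rw [key K cK.measurableSet, key L cL.measurableSet, key _ (isClosed_LW a b K L).measurableSet,
    ENNReal.mul_rpow_of_nonneg _ _ ha.le, ENNReal.mul_rpow_of_nonneg _ _ hb.le,
    mul_mul_mul_comm, ← ENNReal.rpow_add_of_nonneg _ _ ha.le hb.le, hab, ENNReal.rpow_one] at h3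
  exact (ENNReal.mul_le_mul_iff_right (by exact_mod_cast hc0.ne') ENNReal.coe_ne_top).1 h3

end Vale.Agent.P227
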