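import Vale.Agent.P227B.Rad

namespace Vale.Agent.P227

open Set MeasureTheory
open scoped ENNReal

theorem mplB_cons {k : ℕ} {E : Fin (k + 1) → Type} [∀ j, MeasurableSpace (E j)]
    (μ : ∀ j, Measure (E j)) [∀ j, SigmaFinite (μ j)] {F : (∀ j, E j) → ℝ≥0∞}
    (hF : Measurable F) :
    ∫⁻ x, F x ∂Measure.pi μ = ∫⁻ t, ∫⁻ y, F ((MeasurableEquiv.piFinSuccAbove E 0).symm (t, y))
      ∂(Measure.pi fun j => μ (Fin.succAbove 0 j)) ∂(μ 0) := by
  have h := (measurePreserving_piFinSuccAbove μ 0).symm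
  rw [← h.lintegral_comp hF]
  exact lintegral_prod _
    (hF.comp (MeasurableEquiv.piFinSuccAbove E 0).symm.measurable).aemeasurable

theorem mplB (k : ℕ) (E : Fin k → Type) [∀ j, NormedAddCommGroup (E j)]
    [∀ j, NormedSpace ℝ (E j)] [∀ j, FiniteDimensional ℝ (E j)] [∀ j, MeasurableSpace (E j)]
    [∀ j, BorelSpace (E j)] (μ : ∀ j, Measure (E j)) [∀ j, (μ j).IsAddHaarMeasure]
    {a b : ℝ} (ha : 0 < a) (hb : 0 < b) (hab : a + b = 1) (F G H : (∀ j, E j) → ℝ≥0∞)
    (hF : Measurable F) (hG : Measurable G) (hH : Measurable H)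
    (h : ∀ x y z : ∀ j, E j, (∀ j, ‖z j‖ = ‖x j‖ ^ a * ‖y j‖ ^ b) → F x ^ a * G y ^ b ≤ H z) :
    (∫⁻ x, F x ∂Measure.pi μ) ^ a * (∫⁻ x, G x ∂Measure.pi μ) ^ b ≤ ∫⁻ x, H x ∂Measure.pi μ := by
  induction k with
  | zero =>
    have hv : (Measure.pi μ) univ = 1 := by
      rw [Measure.pi_univ]; simp
    rw [lintegral_unique, lintegral_unique, lintegral_unique, hv, mul_one, mul_one, mul_one]
    exact h _ _ _ fun j => j.elim0
  | succ m ih =>
    rw [mplB_cons μ hF, mplB_cons μ hG, mplB_cons μ hH]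
    have me := (MeasurableEquiv.piFinSuccAbove E 0).symm.measurable
    have mc : ∀ t : E 0, Measurable fun y : ∀ j, E (Fin.succAbove 0 j) =>
        (MeasurableEquiv.piFinSuccAbove E 0).symm (t, y) :=
      fun t => me.comp (measurable_prodMk_left (x := t))
    refine mplB_one (μ 0) ha hb hab _ _ _
      (hF.comp me).lintegral_prod_right'
      (hG.comp me).lintegral_prod_right'
      (hH.comp me).lintegral_prod_right' fun x y z hz => ?_
    refine ih (fun j => E (Fin.succAbove 0 j)) (fun j => μ (Fin.succAbove 0 j)) _ _ _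
      (hF.comp (mc x)) (hG.comp (mc y)) (hH.comp (mc z)) fun x' y' z' hz' => ?_
    refine h _ _ _ fun j => ?_
    have e : ∀ (t : E 0) (w : ∀ j, E (Fin.succAbove 0 j)),
        (MeasurableEquiv.piFinSuccAbove E 0).symm (t, w) = Fin.insertNth 0 t w := fun _ _ => rfl
    rw [e, e, e]
    refine Fin.succAboveCases 0 ?_ (fun i => ?_) j
    · rw [Fin.insertNth_apply_same, Fin.insertNth_apply_same, Fin.insertNth_apply_same]
      exact hz
    · rw [Fin.insertNth_apply_succAbove, Fin.insertNth_apply_succAbove,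
        Fin.insertNth_apply_succAbove]
      exact hz' i

end Vale.Agent.P227
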