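import Vale.Agent.P227.Planar
import Vale.Agent.P227B.RadPi
import Vale.Agent.P227B.FiberB

namespace Vale.Agent.P227

open Set MeasureTheory

lemma mainPB_sym {k : ℕ} {E : Fin k → Type} [∀ j, NormedAddCommGroup (E j)]
    [∀ j, NormedSpace ℝ (E j)] {K : Set ((ℝ × ℝ) × (∀ j, E j))} (cK : IsCompact K)
    (vK : Convex ℝ K) (hK : InvB K) (y : ∀ j, E j) (k0 : {x | (x, y) ∈ K}.Nonempty) :
    Sym {x | (x, y) ∈ K} := by
  refine ⟨?_, ?_, k0, ?_⟩
  · have h1 : IsClosed {x : ℝ × ℝ | (x, y) ∈ K} :=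
      cK.isClosed.preimage (continuous_id.prodMk continuous_const)
    refine (cK.image continuous_fst).of_isClosed_subset h1 ?_
    intro x hx
    exact ⟨(x, y), hx, rfl⟩
  · intro x hx x' hx' s t hs ht hst
    have h := vK hx hx' hs ht hst
    have e : s • (x, y) + t • (x', y) = (s • x + t • x', y) := by
      ext1
      · rfl
      · show s • y + t • y = y
        rw [← add_smul, hst, one_smul]
    rw [e] at h
    exact h
  · intro x hx
    exact (hK x y y hx fun _ => rfl).2

theorem mainPB {k : ℕ} {E : Fin k → Type} [∀ j, NormedAddCommGroup (E j)]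
    [∀ j, NormedSpace ℝ (E j)] [∀ j, FiniteDimensional ℝ (E j)] [∀ j, MeasurableSpace (E j)]
    [∀ j, BorelSpace (E j)] (μ : ∀ j, Measure (E j)) [∀ j, (μ j).IsAddHaarMeasure]
    {K L : Set ((ℝ × ℝ) × (∀ j, E j))} (cK : IsCompact K) (cL : IsCompact L)
    (vK : Convex ℝ K) (vL : Convex ℝ L) (hK : InvB K) (hL : InvB L)
    {a b : ℝ} (ha : 0 < a) (hb : 0 < b) (hab : a + b = 1) :
    ((volume : Measure (ℝ × ℝ)).prod (Measure.pi μ)) K ^ a *
        ((volume : Measure (ℝ × ℝ)).prod (Measure.pi μ)) L ^ b ≤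
      ((volume : Measure (ℝ × ℝ)).prod (Measure.pi μ)) (LW a b K L) := by
  haveI : ∀ j, ProperSpace (E j) := fun j => FiniteDimensional.proper_real (E j)
  have mK : MeasurableSet K := cK.isClosed.measurableSet
  have mL : MeasurableSet L := cL.isClosed.measurableSet
  have mW : MeasurableSet (LW a b K L) := (isClosed_LW a b K L).measurableSet
  rw [Measure.prod_apply_symm mK, Measure.prod_apply_symm mL, Measure.prod_apply_symm mW]
  refine mplB k E μ ha hb hab _ _ _ (measurable_measure_prodMk_right mK)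
    (measurable_measure_prodMk_right mL) (measurable_measure_prodMk_right mW) ?_
  intro y y' z hz
  show volume {x : ℝ × ℝ | (x, y) ∈ K} ^ a * volume {x : ℝ × ℝ | (x, y') ∈ L} ^ b ≤
    volume {x : ℝ × ℝ | (x, z) ∈ LW a b K L}
  rcases eq_empty_or_nonempty {x : ℝ × ℝ | (x, y) ∈ K} with k0 | k0
  · rw [k0, measure_empty, ENNReal.zero_rpow_of_pos ha, zero_mul]
    exact zero_le
  rcases eq_empty_or_nonempty {x : ℝ × ℝ | (x, y') ∈ L} with l0 | l0
  · rw [l0, measure_empty, ENNReal.zero_rpow_of_pos hb, mul_zero]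
    exact zero_le
  refine (planar (mainPB_sym cK vK hK y k0) (mainPB_sym cL vL hL y' l0) ha hb hab).trans ?_
  exact measure_mono fun x hx => fiber_memB hK hL ha hb hab hz k0 l0 hx

end Vale.Agent.P227
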