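import Vale.Agent.P227H.MulPL

namespace Vale.Agent.P227

open Set MeasureTheory
open scoped ENNReal

theorem rad_polar {E : Type*} [NormedAddCommGroup E] [NormedSpace ℝ E] [FiniteDimensional ℝ E]
    [MeasurableSpace E] [BorelSpace E] [Nontrivial E] (μ : Measure E) [μ.IsAddHaarMeasure]
    {F : E → ℝ≥0∞} (hF : Measurable F) :
    ∫⁻ x, F x ∂μ = ∫⁻ θ : Metric.sphere (0 : E) 1, (∫⁻ r in Ioi (0 : ℝ),
      ENNReal.ofReal (r ^ (Module.finrank ℝ E - 1)) * F (r • (θ : E))) ∂μ.toSphere := by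
  have hm : Measurable fun p : Metric.sphere (0 : E) 1 × Ioi (0 : ℝ) => F ((p.2 : ℝ) • (p.1 : E)) :=
    hF.comp (Continuous.measurable (by fun_prop))
  calc ∫⁻ x, F x ∂μ = ∫⁻ x : ({(0)}ᶜ : Set E), F x.1 ∂(μ.comap (↑)) := by
        rw [lintegral_subtype_comap (measurableSet_singleton _).compl, restrict_compl_singleton]
    _ = ∫⁻ p : Metric.sphere (0 : E) 1 × Ioi (0 : ℝ), F ((p.2 : ℝ) • (p.1 : E))
          ∂μ.toSphere.prod (.volumeIoiPow (Module.finrank ℝ E - 1)) := by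
        rw [← μ.measurePreserving_homeomorphUnitSphereProd.lintegral_comp hm]
        refine lintegral_congr fun x => ?_
        have hx : ‖x.1‖ ≠ 0 := norm_ne_zero_iff.2 x.2
        simp [smul_smul, hx]
    _ = _ := by
        rw [lintegral_prod _ hm.aemeasurable]
        refine lintegral_congr fun θ => ?_
        rw [Measure.volumeIoiPow, lintegral_withDensity_eq_lintegral_mul _
          (measurable_subtype_coe.pow_const _).ennreal_ofReal
          (g := fun r : Ioi (0 : ℝ) => F ((r : ℝ) • (θ : E)))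
          (hF.comp (Continuous.measurable (by fun_prop)))]
        exact lintegral_subtype_comap measurableSet_Ioi
          fun r : ℝ => ENNReal.ofReal (r ^ (Module.finrank ℝ E - 1)) * F (r • (θ : E))

theorem rad_sup {S : Type*} [MeasurableSpace S] (σ : Measure S) {a b : ℝ} (ha : 0 < a)
    (hb : 0 < b) (hab : a + b = 1) {A B C : S → ℝ≥0∞}
    (h : ∀ s t u, A s ^ a * B t ^ b ≤ C u) :
    (∫⁻ s, A s ∂σ) ^ a * (∫⁻ s, B s ∂σ) ^ b ≤ ∫⁻ s, C s ∂σ := by
  have h1 : ∫⁻ s, A s ∂σ ≤ (⨆ s, A s) * σ univ :=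
    (lintegral_mono fun s => le_iSup A s).trans (lintegral_const _).le
  have h2 : ∫⁻ s, B s ∂σ ≤ (⨆ s, B s) * σ univ :=
    (lintegral_mono fun s => le_iSup B s).trans (lintegral_const _).le
  have e1 : (⨆ s, A s) ^ a = ⨆ s, A s ^ a := (ENNReal.orderIsoRpow a ha).map_iSup A
  have e2 : (⨆ s, B s) ^ b = ⨆ s, B s ^ b := (ENNReal.orderIsoRpow b hb).map_iSup B
  calc _ ≤ ((⨆ s, A s) * σ univ) ^ a * ((⨆ s, B s) * σ univ) ^ b := by gcongr
    _ = (⨆ s, A s) ^ a * (⨆ s, B s) ^ b * σ univ := by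
        rw [ENNReal.mul_rpow_of_nonneg _ _ ha.le, ENNReal.mul_rpow_of_nonneg _ _ hb.le,
          mul_mul_mul_comm, ← ENNReal.rpow_add_of_nonneg _ _ ha.le hb.le, hab, ENNReal.rpow_one]
    _ ≤ _ := by
        rw [← lintegral_const]
        refine lintegral_mono fun u => ?_
        rw [e1, e2, ENNReal.iSup_mul]
        refine iSup_le fun s => ?_
        rw [ENNReal.mul_iSup]
        exact iSup_le fun t => h s t u

/-- multiplicative Prekopa-Leindler inequality for the norm on one block -/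
theorem mplB_one {E : Type*} [NormedAddCommGroup E] [NormedSpace ℝ E] [FiniteDimensional ℝ E]
    [MeasurableSpace E] [BorelSpace E] (μ : Measure E) [μ.IsAddHaarMeasure]
    {a b : ℝ} (ha : 0 < a) (hb : 0 < b) (hab : a + b = 1) (F G H : E → ℝ≥0∞)
    (hF : Measurable F) (hG : Measurable G) (hH : Measurable H)
    (h : ∀ x y z : E, ‖z‖ = ‖x‖ ^ a * ‖y‖ ^ b → F x ^ a * G y ^ b ≤ H z) :
    (∫⁻ x, F x ∂μ) ^ a * (∫⁻ x, G x ∂μ) ^ b ≤ ∫⁻ x, H x ∂μ := by
  rcases subsingleton_or_nontrivial E with hE | hE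
  · refine rad_sup μ ha hb hab fun x y z => h x y z ?_
    rw [Subsingleton.elim x 0, Subsingleton.elim z 0, norm_zero, Real.zero_rpow ha.ne', zero_mul]
  rw [rad_polar μ hF, rad_polar μ hG, rad_polar μ hH]
  refine rad_sup _ ha hb hab fun θ₁ θ₂ θ₃ => ?_
  generalize Module.finrank ℝ E - 1 = d
  have md : Measurable fun r : ℝ => ENNReal.ofReal (r ^ d) :=
    (measurable_id.pow_const d).ennreal_ofReal
  have mc : ∀ θ : E, Measurable fun r : ℝ => r • θ := fun θ => Continuous.measurable (by fun_prop)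
  refine P227H.mul_pl ha hb hab (md.mul (hF.comp (mc _))) (md.mul (hG.comp (mc _)))
    (md.mul (hH.comp (mc _))) fun s t hs ht => ?_
  have hn : ∀ (θ : Metric.sphere (0 : E) 1) (r : ℝ), 0 < r → ‖r • (θ : E)‖ = r := by
    intro θ r hr
    rw [norm_smul, norm_eq_of_mem_sphere, mul_one, Real.norm_of_nonneg hr.le]
  have e : (s ^ a * t ^ b) ^ d = (s ^ d) ^ a * (t ^ d) ^ b := by
    rw [mul_pow, ← Real.rpow_natCast, ← Real.rpow_natCast, ← Real.rpow_natCast,
      ← Real.rpow_natCast, ← Real.rpow_mul hs.le, ← Real.rpow_mul ht.le, ← Real.rpow_mul hs.le,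
      ← Real.rpow_mul ht.le, mul_comm a, mul_comm b]
  rw [e, ENNReal.mul_rpow_of_nonneg _ _ ha.le, ENNReal.mul_rpow_of_nonneg _ _ hb.le,
    ENNReal.ofReal_rpow_of_pos (pow_pos hs d), ENNReal.ofReal_rpow_of_pos (pow_pos ht d),
    ENNReal.ofReal_mul (by positivity), mul_mul_mul_comm]
  refine mul_le_mul_right (h _ _ _ ?_) _
  rw [hn _ _ hs, hn _ _ ht, hn _ _ (by positivity)]

end Vale.Agent.P227
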