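import Vale.Agent.P227.Stmt

namespace Vale.Agent.P227

/-- origin-symmetric convex body -/
def IsSymBody {n : ℕ} (K : Set (EuclideanSpace ℝ (Fin n))) : Prop :=
  IsCompact K ∧ Convex ℝ K ∧ (interior K).Nonempty ∧ ∀ x ∈ K, -x ∈ K

/-- membership of `T (x, y)` in `K` depends only on `x` and the norms of the blocks `y j` -/
def BlockInv {n k : ℕ} {E : Fin k → Type} [∀ j, Norm (E j)]
    (T : (ℝ × ℝ) × (∀ j, E j) → EuclideanSpace ℝ (Fin n))
    (K : Set (EuclideanSpace ℝ (Fin n))) : Prop :=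
  ∀ x y y', T (x, y) ∈ K → (∀ j, ‖y' j‖ = ‖y j‖) → T (x, y') ∈ K

end Vale.Agent.P227
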